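import Mathlib

/-!
Topologies on a finite set are preorders (helper201, for the corollaries of
`P183.SubringIntervals`). The order of `TopologicalSpace X` is Mathlib's: `t ≤ s` iff every
`s`-open set is `t`-open; the order of relations is implication.
-/

set_option autoImplicit false

namespace Vale.Agent.P183.H201

/-- the relation of a topology: every open set that contains `x` contains `y` -/
def spec {X : Type} (t : TopologicalSpace X) (x y : X) : Prop :=
  ∀ U : Set X, @IsOpen X t U → x ∈ U → y ∈ U

/-- the topology of a relation: open sets are the sets closed under the relation -/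
@[reducible] def alex {X : Type} (r : X → X → Prop) : TopologicalSpace X where
  IsOpen U := ∀ x y, r x y → x ∈ U → y ∈ U
  isOpen_univ := fun _ _ _ _ => trivial
  isOpen_inter := fun _ _ hU hV x y hr hx => ⟨hU x y hr hx.1, hV x y hr hx.2⟩
  isOpen_sUnion := fun S hS x y hr hx => by
    obtain ⟨U, hU, hxU⟩ := hx
    exact ⟨U, hU, hS U hU x y hr hxU⟩

/-- in a finite space the sets closed under the relation are open -/
theorem isOpen_of_closed {X : Type} [Finite X] (t : TopologicalSpace X) (U : Set X)
    (hU : ∀ x y, spec t x y → x ∈ U → y ∈ U) : @IsOpen X t U := by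
  have h1 : ∀ x, @IsOpen X t (⋂₀ {V : Set X | @IsOpen X t V ∧ x ∈ V}) := fun x =>
    Set.Finite.isOpen_sInter (Set.toFinite _) (fun V hV => hV.1)
  have h2 : U = ⋃ x ∈ U, ⋂₀ {V : Set X | @IsOpen X t V ∧ x ∈ V} := by
    ext y
    simp only [Set.mem_iUnion, Set.mem_sInter, Set.mem_ofPred_eq, exists_prop]
    constructor
    · intro hy
      exact ⟨y, hy, fun V hV => hV.2⟩
    · rintro ⟨x, hx, hxy⟩
      exact hU x y (fun V hV hxV => hxy V ⟨hV, hxV⟩) hx
  rw [h2]
  exact isOpen_iUnion (fun x => isOpen_iUnion (fun _ => h1 x))

/-- **Topologies on a finite set are preorders.** -/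
def topoIso (X : Type) [Finite X] : TopologicalSpace X ≃o
    {r : X → X → Prop // (∀ x, r x x) ∧ ∀ x y z, r x y → r y z → r x z} where
  toFun t := ⟨spec t, fun _ _ _ h => h, fun _ _ _ h1 h2 U hU hx => h2 U hU (h1 U hU hx)⟩
  invFun r := alex r.1
  left_inv t := by
    apply TopologicalSpace.ext
    funext U
    apply propext
    constructor
    · intro h
      exact isOpen_of_closed t U h
    · intro h x y hr hx
      exact hr U h hx
  right_inv r := by
    apply Subtype.ext
    funext x y
    apply propext
    constructor
    · intro h
      exact h {z | r.1 x z} (fun a b hab hxa => r.2.2 x a b hxa hab) (r.2.1 x)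
    · intro h U hU hx
      exact hU x y h hx
  map_rel_iff' := by
    intro t s
    constructor
    · intro h U hU
      refine isOpen_of_closed t U (fun x y hxy hx => ?_)
      exact h x y hxy U hU hx
    · intro h x y hxy U hU hx
      exact hxy U (h U hU) hx

end Vale.Agent.P183.H201
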